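import Mathlib

/-!
# P207, H608: elementary inequalities for the expansion in the direction `g → g₀`
-/

open Finset

noncomputable section

namespace Vale.Agent.P207.H608

/-- the expansion of `(1 + u)^(-1/2)` -/
theorem inv_sqrt_expand {r u : ℝ} (hr : 0 < r) (h : r ^ 2 * (1 + u) = 1) (hu : |u| ≤ 1 / 2) :
    r ≤ 1 - u / 2 + 3 / 8 * u ^ 2 + |u| ^ 3 := by
  have h1 := abs_le.1 hu
  have hu3 : 0 ≤ |u| ^ 3 := by positivity
  have hau : u ^ 3 ≤ |u| ^ 3 := by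
    calc u ^ 3 ≤ |u ^ 3| := le_abs_self _
      _ = |u| ^ 3 := abs_pow u 3
  have hau' : - |u| ^ 3 ≤ u ^ 3 := by
    have := neg_abs_le (u ^ 3)
    rwa [abs_pow] at this
  set q := 1 - u / 2 + 3 / 8 * u ^ 2 with hq
  have hqpos : 0 < q := by nlinarith
  -- `q ^ 2 (1 + u) ≥ 1 - c |u| ^ 3`
  by_contra hcon
  push Not at hcon
  have h2 : (q + |u| ^ 3) ^ 2 * (1 + u) < 1 := by
    have h3 : (q + |u| ^ 3) ^ 2 < r ^ 2 := by
      apply pow_lt_pow_left₀ hcon (by positivity) (by norm_num)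
    have h4 : 0 < 1 + u := by linarith
    calc (q + |u| ^ 3) ^ 2 * (1 + u) < r ^ 2 * (1 + u) := mul_lt_mul_of_pos_right h3 h4
      _ = 1 := h
  have h5 : q ^ 2 * (1 + u) = 1 + 5 / 8 * u ^ 3 - 15 / 64 * u ^ 4 + 9 / 64 * u ^ 5 := by
    rw [hq]; ring
  have h6 : (q + |u| ^ 3) ^ 2 * (1 + u) ≥ q ^ 2 * (1 + u) + 2 * q * |u| ^ 3 * (1 + u) := by
    have h7 : 0 ≤ (|u| ^ 3) ^ 2 * (1 + u) := mul_nonneg (by positivity) (by linarith)
    nlinarith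
  have h8 : 5 / 8 * u ^ 3 - 15 / 64 * u ^ 4 + 9 / 64 * u ^ 5 ≥ - (7 / 8) * |u| ^ 3 := by
    have e4 : u ^ 4 ≤ |u| ^ 3 / 2 := by
      have : u ^ 4 = |u| ^ 3 * |u| := by
        rw [← pow_succ, Even.pow_abs (by decide)]
      rw [this]; nlinarith
    have e5 : - (|u| ^ 3 / 4) ≤ u ^ 5 := by
      have h9 : |u ^ 5| ≤ |u| ^ 3 / 4 := by
        rw [abs_pow]
        have : |u| ^ 5 = |u| ^ 3 * (|u| * |u|) := by ring
        rw [this]
        have h10 : |u| * |u| ≤ 1 / 4 := by nlinarith [abs_nonneg u]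
        nlinarith
      exact (abs_le.1 h9).1
    nlinarith
  have h9 : 2 * q * |u| ^ 3 * (1 + u) ≥ 7 / 8 * |u| ^ 3 := by
    have h10 : 2 * q * (1 + u) ≥ 7 / 8 := by
      rw [hq]; nlinarith
    calc 2 * q * |u| ^ 3 * (1 + u) = (2 * q * (1 + u)) * |u| ^ 3 := by ring
      _ ≥ 7 / 8 * |u| ^ 3 := mul_le_mul_of_nonneg_right h10 hu3
  nlinarith

theorem inv_sqrt_bounds {r u : ℝ} (hr : 0 < r) (h : r ^ 2 * (1 + u) = 1) (hu : |u| ≤ 1 / 4) :
    4 / 5 ≤ r ∧ r ≤ 5 / 4 ∧ |r - 1| ≤ |u| := by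
  have h1 := abs_le.1 hu
  have hlo : 4 / 5 ≤ r := by
    by_contra hc
    push Not at hc
    have : r ^ 2 * (1 + u) < 1 := by
      have h2 : r ^ 2 < (4 / 5) ^ 2 := pow_lt_pow_left₀ hc hr.le (by norm_num)
      nlinarith
    linarith
  have hhi : r ≤ 5 / 4 := by
    by_contra hc
    push Not at hc
    have : 1 < r ^ 2 * (1 + u) := by
      have h2 : (5 / 4) ^ 2 < r ^ 2 := pow_lt_pow_left₀ hc (by norm_num) (by norm_num)
      nlinarith
    linarith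
  refine ⟨hlo, hhi, ?_⟩
  -- `(r - 1) (r + 1) = - r ^ 2 u`
  have h2 : (r - 1) * (r + 1) = - (r ^ 2 * u) := by nlinarith
  have h3 : |r - 1| * (r + 1) = r ^ 2 * |u| := by
    have h4 := congrArg abs h2
    rw [abs_mul, abs_neg, abs_mul, abs_of_pos (by linarith : 0 < r + 1),
      abs_of_nonneg (by positivity : 0 ≤ r ^ 2)] at h4
    exact h4
  have h4 : r ^ 2 ≤ r + 1 := by nlinarith
  have h5 : 0 ≤ |u| := abs_nonneg u
  have h6 : |r - 1| * (r + 1) ≤ |u| * (r + 1) := by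
    rw [h3]; nlinarith
  exact le_of_mul_le_mul_right h6 (by linarith)

/-- `√(a² + b) ≤ a + b / (2a)` -/
theorem sqrt_le_add {a b : ℝ} (ha : 0 < a) (hb : 0 ≤ b) :
    Real.sqrt (a ^ 2 + b) ≤ a + b / (2 * a) := by
  apply Real.sqrt_le_iff.2
  refine ⟨by positivity, ?_⟩
  have h1 : (a + b / (2 * a)) ^ 2 = a ^ 2 + b + (b / (2 * a)) ^ 2 := by
    field_simp
    ring
  rw [h1]
  have : 0 ≤ (b / (2 * a)) ^ 2 := sq_nonneg _
  linarith

/-- the solution of `S + S k = Z` -/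
theorem solve_bound {n : ℕ} {S Z : Fin n → ℝ} {k : Fin n → Fin n → ℝ} {δ b : ℝ}
    (hk : ∀ m l, |k m l| ≤ δ) (hδ : (n : ℝ) * δ ≤ 1 / 2) (hZ : ∀ l, |Z l| ≤ b)
    (h : ∀ l, S l + ∑ m, S m * k m l = Z l) (l : Fin n) :
    |S l| ≤ 2 * b ∧ |S l - Z l| ≤ 2 * n * δ * b := by
  classical
  have hn : (univ : Finset (Fin n)).Nonempty := ⟨l, mem_univ l⟩
  obtain ⟨m₀, -, hm₀⟩ := exists_max_image univ (fun m => |S m|) hn
  have hδ0 : 0 ≤ δ := (abs_nonneg _).trans (hk l l)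
  set A := |S m₀| with hA
  have hA0 : 0 ≤ A := abs_nonneg _
  have hsum : ∀ l, |∑ m, S m * k m l| ≤ n * δ * A := by
    intro l
    calc |∑ m, S m * k m l| ≤ ∑ m, |S m * k m l| := abs_sum_le_sum_abs _ _
      _ ≤ ∑ _m : Fin n, A * δ := by
          refine sum_le_sum fun m _ => ?_
          rw [abs_mul]
          exact mul_le_mul (hm₀ m (mem_univ m)) (hk m l) (abs_nonneg _) hA0
      _ = n * δ * A := by
          rw [sum_const, card_univ, Fintype.card_fin, nsmul_eq_mul]; ring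
  have hdiff : ∀ l, |S l - Z l| ≤ n * δ * A := by
    intro l
    have h1 : S l - Z l = - ∑ m, S m * k m l := by
      have := h l
      linarith
    rw [h1, abs_neg]
    exact hsum l
  have hAb : A ≤ 2 * b := by
    have h1 := hdiff m₀
    have h2 : |S m₀| ≤ |S m₀ - Z m₀| + |Z m₀| := by
      have := abs_add_le (S m₀ - Z m₀) (Z m₀)
      rwa [sub_add_cancel] at this
    have h3 := hZ m₀
    have h4 : n * δ * A ≤ 1 / 2 * A := mul_le_mul_of_nonneg_right hδ hA0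
    linarith
  refine ⟨(hm₀ l (mem_univ l)).trans hAb, (hdiff l).trans ?_⟩
  calc n * δ * A ≤ n * δ * (2 * b) := mul_le_mul_of_nonneg_left hAb (by positivity)
    _ = 2 * n * δ * b := by ring

/-- the first component of the velocity -/
theorem first_comp {x r u z κ δ C : ℝ} (hC : 1 ≤ C) (hδ0 : 0 ≤ δ) (hδ : 16 * C * δ ≤ 1)
    (hr : 0 < r) (hru : r ^ 2 * (1 + u) = 1) (hu : |u| ≤ δ)
    (hz : |z| ≤ C * δ ^ 2) (hκ : |κ| ≤ C * δ ^ 2)
    (hx0 : |x - r * (1 + z + κ)| ≤ C * δ ^ 3) :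
    x ≤ 1 - u / 2 + 3 / 8 * u ^ 2 + z + κ + 5 * C ^ 2 * δ ^ 3 ∧ |x - 1| ≤ 2 * δ := by
  have hCδ : C * δ ≤ 1 / 16 := by linarith
  have hδ1 : δ ≤ 1 / 16 := by
    have : δ ≤ C * δ := le_mul_of_one_le_left hδ0 hC
    linarith
  have hu4 : |u| ≤ 1 / 4 := hu.trans (by linarith)
  obtain ⟨hr1, hr2, hr3⟩ := inv_sqrt_bounds hr hru hu4
  have hr4 := inv_sqrt_expand hr hru (hu4.trans (by norm_num))
  have hr5 : |r - 1| ≤ δ := hr3.trans hu
  have hu3 : |u| ^ 3 ≤ δ ^ 3 := pow_le_pow_left₀ (abs_nonneg u) hu 3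
  have hδ3 : 0 ≤ δ ^ 3 := by positivity
  have hCδ2 : C * δ ^ 2 ≤ δ / 16 := by
    have h1 : C * δ ^ 2 = C * δ * δ := by ring
    rw [h1]
    have := mul_le_mul_of_nonneg_right hCδ hδ0
    linarith
  have hCδ3 : C * δ ^ 3 ≤ δ / 16 := by
    have h1 : C * δ ^ 3 = C * δ ^ 2 * δ := by ring
    rw [h1]
    have h2 : C * δ ^ 2 * δ ≤ δ / 16 * 1 :=
      mul_le_mul hCδ2 (by linarith) hδ0 (by linarith)
    linarith
  have hC2 : C ≤ C ^ 2 := by
    have := mul_le_mul_of_nonneg_left hC (by linarith : 0 ≤ C)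
    rw [mul_one, ← sq] at this
    exact this
  have hzk : |z + κ| ≤ 2 * (C * δ ^ 2) := by
    have := abs_add_le z κ
    linarith
  have hprod : |(r - 1) * (z + κ)| ≤ 2 * C * δ ^ 3 := by
    rw [abs_mul]
    calc |r - 1| * |z + κ| ≤ δ * (2 * (C * δ ^ 2)) := mul_le_mul hr5 hzk (abs_nonneg _) hδ0
      _ = 2 * C * δ ^ 3 := by ring
  have hid : r * (1 + z + κ) = r + (z + κ) + (r - 1) * (z + κ) := by ring
  have hx0' := abs_le.1 hx0
  have hp' := abs_le.1 hprod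
  have hzk' := abs_le.1 hzk
  have hr5' := abs_le.1 hr5
  constructor
  · have h1 : x ≤ r + (z + κ) + 3 * C * δ ^ 3 := by linarith
    have h2 : 3 * C * δ ^ 3 ≤ 3 * C ^ 2 * δ ^ 3 := by
      have := mul_le_mul_of_nonneg_right hC2 hδ3
      linarith
    have h3 : δ ^ 3 ≤ C ^ 2 * δ ^ 3 := by
      have h4 : 1 ≤ C ^ 2 := hC.trans hC2
      have := mul_le_mul_of_nonneg_right h4 hδ3
      linarith
    linarith
  · rw [abs_le]
    constructor <;> linarith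

/-- the other components of the velocity -/
theorem other_comp {x h r δ C : ℝ} (hC : 1 ≤ C) (hδ0 : 0 ≤ δ) (hδ : 16 * C * δ ≤ 1)
    (hr : |r - 1| ≤ δ) (hh : |h| ≤ δ) (hx : |x - r * h| ≤ C * δ ^ 2) :
    x ^ 2 ≤ h ^ 2 + 8 * C ^ 2 * δ ^ 3 := by
  have hCδ : C * δ ≤ 1 / 16 := by linarith
  have hδ1 : δ ≤ 1 / 16 := by
    have : δ ≤ C * δ := le_mul_of_one_le_left hδ0 hC
    linarith
  have hC2 : C ≤ C ^ 2 := by
    have := mul_le_mul_of_nonneg_left hC (by linarith : 0 ≤ C)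
    rw [mul_one, ← sq] at this
    exact this
  have hδ2 : δ ^ 2 ≤ C * δ ^ 2 := le_mul_of_one_le_left (sq_nonneg δ) hC
  have hCδ2 : C * δ ^ 2 ≤ δ / 16 := by
    have h1 : C * δ ^ 2 = C * δ * δ := by ring
    rw [h1]
    have := mul_le_mul_of_nonneg_right hCδ hδ0
    linarith
  have h2 : |x - h| ≤ 2 * C * δ ^ 2 := by
    have h3 : |(r - 1) * h| ≤ δ * δ := by
      rw [abs_mul]; exact mul_le_mul hr hh (abs_nonneg _) hδ0
    have h4 : x - h = (x - r * h) + (r - 1) * h := by ring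
    rw [h4]
    have := abs_add_le (x - r * h) ((r - 1) * h)
    have h5 : δ * δ = δ ^ 2 := by ring
    linarith
  have h3 : x ^ 2 = h ^ 2 + (x - h) * (2 * h + (x - h)) := by ring
  rw [h3]
  have h5 : |2 * h + (x - h)| ≤ 4 * δ := by
    have h6 := abs_add_le (2 * h) (x - h)
    rw [abs_mul, abs_two] at h6
    linarith
  have h4 : (x - h) * (2 * h + (x - h)) ≤ (2 * C * δ ^ 2) * (4 * δ) := by
    calc (x - h) * (2 * h + (x - h)) ≤ |(x - h) * (2 * h + (x - h))| := le_abs_self _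
      _ = |x - h| * |2 * h + (x - h)| := abs_mul _ _
      _ ≤ (2 * C * δ ^ 2) * (4 * δ) := mul_le_mul h2 h5 (abs_nonneg _) (by positivity)
  have h7 : (2 * C * δ ^ 2) * (4 * δ) = 8 * C * δ ^ 3 := by ring
  have h8 : 8 * C * δ ^ 3 ≤ 8 * C ^ 2 * δ ^ 3 := by
    have := mul_le_mul_of_nonneg_right hC2 (by positivity : 0 ≤ δ ^ 3)
    linarith
  linarith

/-- the quotient in the estimate of the norm -/
theorem div_comp {b bh x δ D N : ℝ} (hδ0 : 0 ≤ δ) (hδ1 : δ ≤ 1 / 16) (hx : |x - 1| ≤ 2 * δ)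
    (hb : b ≤ bh + D) (hbh0 : 0 ≤ bh) (hbh : bh ≤ N * δ ^ 2) (hD : 0 ≤ D) (hN : 0 ≤ N) :
    b / (2 * x) ≤ bh / 2 + D + 2 * N * δ ^ 3 := by
  have hx' := abs_le.1 hx
  have hx1 : 7 / 8 ≤ x := by linarith
  rw [div_le_iff₀ (by linarith)]
  have e1 : bh * (1 - x) ≤ 2 * N * δ ^ 3 := by
    calc bh * (1 - x) ≤ bh * (2 * δ) := mul_le_mul_of_nonneg_left (by linarith) hbh0
      _ ≤ N * δ ^ 2 * (2 * δ) := mul_le_mul_of_nonneg_right hbh (by positivity)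
      _ = 2 * N * δ ^ 3 := by ring
  have e2 : D ≤ D * (2 * x) := le_mul_of_one_le_right hD (by linarith)
  have e3 : 2 * N * δ ^ 3 ≤ 2 * N * δ ^ 3 * (2 * x) :=
    le_mul_of_one_le_right (by positivity) (by linarith)
  have e4 : (bh / 2 + D + 2 * N * δ ^ 3) * (2 * x) =
      bh - bh * (1 - x) + D * (2 * x) + 2 * N * δ ^ 3 * (2 * x) := by ring
  rw [e4]
  linarith

/-- the norm of the velocity in the direction `g → g₀` -/
theorem norm_expB {n : ℕ} [NeZero n] {x h : Fin n → ℝ} {r u z κ δ C : ℝ} (hC : 1 ≤ C)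
    (hδ0 : 0 ≤ δ) (hδ : 16 * C * δ ≤ 1) (hr : 0 < r) (hru : r ^ 2 * (1 + u) = 1) (hu : |u| ≤ δ)
    (hz : |z| ≤ C * δ ^ 2) (hκ : |κ| ≤ C * δ ^ 2) (hh : ∀ i, |h i| ≤ δ) (hh0 : h 0 = 0)
    (hx0 : |x 0 - r * (1 + z + κ)| ≤ C * δ ^ 3)
    (hx : ∀ i, i ≠ 0 → |x i - r * h i| ≤ C * δ ^ 2) :
    Real.sqrt (∑ i, x i ^ 2) ≤
      1 - u / 2 + 3 / 8 * u ^ 2 + z + κ + (∑ i, h i ^ 2) / 2 + (5 + 10 * n) * C ^ 2 * δ ^ 3 := by
  classical
  have hδ1 : δ ≤ 1 / 16 := by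
    have : δ ≤ C * δ := le_mul_of_one_le_left hδ0 hC
    linarith
  have hu4 : |u| ≤ 1 / 4 := hu.trans (by linarith)
  obtain ⟨-, -, hr3⟩ := inv_sqrt_bounds hr hru hu4
  obtain ⟨hf1, hf2⟩ := first_comp hC hδ0 hδ hr hru hu hz hκ hx0
  have hf2' := abs_le.1 hf2
  have hb1 : ∀ i, i ≠ 0 → x i ^ 2 ≤ h i ^ 2 + 8 * C ^ 2 * δ ^ 3 := fun i hi =>
    other_comp hC hδ0 hδ (hr3.trans hu) (hh i) (hx i hi)
  have hsum : ∑ i, x i ^ 2 = x 0 ^ 2 + ∑ i ∈ univ.erase 0, x i ^ 2 :=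
    (add_sum_erase univ (fun i => x i ^ 2) (mem_univ 0)).symm
  have hsumh : ∑ i, h i ^ 2 = ∑ i ∈ univ.erase 0, h i ^ 2 := by
    rw [← add_sum_erase univ (fun i => h i ^ 2) (mem_univ 0), hh0]
    simp
  have hcard : ((univ.erase (0 : Fin n)).card : ℝ) ≤ n := by
    have h1 : (univ.erase (0 : Fin n)).card ≤ n := by
      calc (univ.erase (0 : Fin n)).card ≤ (univ : Finset (Fin n)).card :=
            card_le_card (erase_subset _ _)
        _ = n := by simp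
    exact_mod_cast h1
  have hE : 0 ≤ 8 * C ^ 2 * δ ^ 3 := by positivity
  have hn0 : (0 : ℝ) ≤ n := Nat.cast_nonneg n
  have hb2 : ∑ i ∈ univ.erase 0, x i ^ 2 ≤
      ∑ i ∈ univ.erase 0, h i ^ 2 + n * (8 * C ^ 2 * δ ^ 3) := by
    calc ∑ i ∈ univ.erase 0, x i ^ 2
        ≤ ∑ i ∈ univ.erase 0, (h i ^ 2 + 8 * C ^ 2 * δ ^ 3) :=
          sum_le_sum fun i hi => hb1 i (ne_of_mem_erase hi)
      _ = ∑ i ∈ univ.erase 0, h i ^ 2 + (univ.erase (0 : Fin n)).card * (8 * C ^ 2 * δ ^ 3) := by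
          rw [sum_add_distrib, sum_const, nsmul_eq_mul]
      _ ≤ _ := by
          have := mul_le_mul_of_nonneg_right hcard hE
          linarith
  have hb0 : 0 ≤ ∑ i ∈ univ.erase 0, x i ^ 2 := sum_nonneg fun i _ => sq_nonneg _
  have hbh0 : 0 ≤ ∑ i ∈ univ.erase 0, h i ^ 2 := sum_nonneg fun i _ => sq_nonneg _
  have hbh1 : ∑ i ∈ univ.erase 0, h i ^ 2 ≤ n * δ ^ 2 := by
    calc ∑ i ∈ univ.erase 0, h i ^ 2 ≤ ∑ i ∈ univ.erase (0 : Fin n), δ ^ 2 := by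
          refine sum_le_sum fun i _ => ?_
          rw [← sq_abs]
          exact pow_le_pow_left₀ (abs_nonneg _) (hh i) 2
      _ = (univ.erase (0 : Fin n)).card * δ ^ 2 := by rw [sum_const, nsmul_eq_mul]
      _ ≤ n * δ ^ 2 := mul_le_mul_of_nonneg_right hcard (sq_nonneg δ)
  have hdiv := div_comp hδ0 hδ1 hf2 hb2 hbh0 hbh1 (mul_nonneg hn0 hE) hn0
  have hmain := sqrt_le_add (a := x 0) (b := ∑ i ∈ univ.erase 0, x i ^ 2) (by linarith) hb0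
  rw [hsum, hsumh]
  have hC2 : 1 ≤ C ^ 2 := by
    have := mul_le_mul_of_nonneg_left hC (by linarith : 0 ≤ C)
    rw [mul_one, ← sq] at this
    exact hC.trans this
  have hfin : n * (8 * C ^ 2 * δ ^ 3) + 2 * n * δ ^ 3 ≤ 10 * n * C ^ 2 * δ ^ 3 := by
    have h1 : 2 * (n : ℝ) * δ ^ 3 ≤ 2 * n * δ ^ 3 * C ^ 2 :=
      le_mul_of_one_le_right (by positivity) hC2
    linarith
  have hexp : (5 + 10 * (n : ℝ)) * C ^ 2 * δ ^ 3 = 5 * C ^ 2 * δ ^ 3 + 10 * n * C ^ 2 * δ ^ 3 := by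
    ring
  rw [hexp]
  linarith

end Vale.Agent.P207.H608
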