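import Vale.Agent.P207.Low.Kfun
import Vale.Agent.P207.H824.Slice
import Vale.Agent.P207.H662.ScT

/-!
# P207, H608: the slice inequality `c |L_W g|² ≤ |(L_W g)₂₂|²` on rank one spaces

For a 1-form `W` the function `u = W(v)` has leafwise degree one, and
`0 ≤ |H₂ u|² = ⟨Δ₂ X u, X u⟩ - d |X u|² - 4 d |u|²`, where `X u = (L_W g)(v,v) / 2`.
-/

open Finset

set_option linter.unusedSectionVars false

noncomputable section

namespace Vale.Agent.P207.H608

open Vale.Agent.P207.H442 Vale.Agent.P207.H662 Vale.Agent.P207 Vale.Agent.P207.H469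
  Vale.Agent.P207.H546 Vale.Agent.P207.H571 Vale.Agent.P207.H824 Vale.Agent.P207.Low

section Abs

variable {W : Type*} [AddCommGroup W] [Module ℝ W] {ip : W →ₗ[ℝ] W →ₗ[ℝ] ℝ} {X : W →ₗ[ℝ] W}
  {κ q : ℝ}

/-- `|H u|² = ⟨Δ X u, X u⟩ - q |X u|² - κ q |u|²` if `Δ u = q u` -/
theorem ip_S_eq (L : Lad1 W ip X κ q) (hs : ∀ f g, ip f g = ip g f)
    (hX : ∀ f g, ip (X f) g = - ip f (X g)) {u : W} (hu : L.Δ u = q • u) :
    ip (L.S u) u = ip (L.Δ (X u)) (X u) - q * ip (X u) (X u) - κ * q * ip u u := by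
  have h1 : (2 : ℝ) • L.E u = - L.Δ (X u) := by
    have h2 := L.X_Δ u
    rw [hu, map_smul] at h2
    have h3 : L.Δ (X u) + (2 : ℝ) • L.E u = 0 := by
      have h4 : q • X u = (L.Δ (X u) + (2 : ℝ) • L.E u) + q • X u := h2
      have h5 := sub_eq_zero.2 h4.symm
      rwa [add_sub_cancel_right] at h5
    rw [add_comm] at h3
    exact eq_neg_of_add_eq_zero_left h3
  have h2 : L.S u = X (L.E u) - L.E (X u) - κ • L.Δ u := by
    rw [L.X_E]; abel
  have h3 : L.E u = (1 / 2 : ℝ) • - L.Δ (X u) := by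
    rw [← h1, smul_smul]; norm_num
  have h4 : ip (X (L.E u)) u = (1 / 2) * ip (L.Δ (X u)) (X u) := by
    rw [hX, h3]
    simp only [map_smul, map_neg, LinearMap.smul_apply, LinearMap.neg_apply, smul_eq_mul]
    ring
  have h5 : ip (L.E (X u)) u = -(1 / 2) * ip (L.Δ (X u)) (X u) + q * ip (X u) (X u) := by
    rw [L.E_adj, h3]
    simp only [map_add, map_smul, map_neg, smul_eq_mul]
    rw [hs (X u) (L.Δ (X u))]
    ring
  rw [h2, hu]
  simp only [map_sub, map_smul, LinearMap.sub_apply, LinearMap.smul_apply, smul_eq_mul]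
  rw [h4, h5]
  ring

end Abs

section Types

variable {n : ℕ} {A : Type*} [CommRing A] [Algebra ℝ A] {C : FrCalc n A} {I : A →ₗ[ℝ] ℝ}
  {b c₀ : ℝ}

theorem B2_ip (k l : F2 n A) : B2 I k l = I (ip k l) := by
  rw [B2_apply]
  unfold H469.ip
  simp only [map_sum]

/-- the projection onto the type `(2,2)` on any space of tensors which it preserves -/
theorem symProj_k22 [NeZero n] (hR : RankOne C b c₀) {S : Submodule ℝ (Fin n → Fin n → A)}
    (hsym : ∀ k ∈ S, ∀ i j, k i j = k j i) (hmem : ∀ k ∈ S, k22 C b c₀ k ∈ S) :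
    SymProj I S (k22 C b c₀) where
  mem := hmem
  symm k _ h _ := by rw [B2_ip, B2_ip, RankOne.ip_k22]
  idem k hk := hR.k22_k22 (hsym k hk)

theorem k22_mem_E2 (hPar : C.Par) {lam : ℝ} {k : Fin n → Fin n → A} (hk : k ∈ E2 C lam) :
    k22 C b c₀ k ∈ E2 C lam := by
  refine ⟨T2_k22 hk.1, k22_symm hk.2.1, fun i j => ?_⟩
  have h1 := mapF_k22 (C := C) (b := b) (c₀ := c₀) (D := C.casL) (fun i j k l f => cas_R hPar i j k l f) k
  have h2 : mapF C.casL k = lam • k := by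
    funext i j
    exact hk.2.2 i j
  rw [h2, map_smul] at h1
  exact congrFun (congrFun h1 i) j

/-- the projection onto the type `(2,2)` on the eigen tensors in a space `T` of tensors -/
theorem symProj_k22_E2 [NeZero n] (hPar : C.Par) (hR : RankOne C b c₀)
    {T : Submodule ℝ (Fin n → Fin n → A)} (hmem : ∀ k ∈ T, k22 C b c₀ k ∈ T) (lam : ℝ) :
    SymProj I (T ⊓ E2 C lam) (k22 C b c₀) :=
  symProj_k22 hR (fun _ hk => hk.2.2.1) fun _ hk => ⟨hmem _ hk.1, k22_mem_E2 hPar hk.2⟩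

end Types

section Hco

variable {m : ℕ} {A : Type*} [CommRing A] [Algebra ℝ A] {C : FrCalc (m + 1) A}
  {I : A →ₗ[ℝ] ℝ} {d : ℝ}

/-- the function `u = W(v)` -/
def uB (h : Rk1 C d) {W : Fin (m + 1) → A} (hW : C.T1 W) : h.sys.B :=
  ⟨W 0, fun i j => by
    change C.V i.succ j.succ (W 0) = 0
    rw [hW, ac_succ_succ_zero]⟩

theorem coe_X_uB (h : Rk1 C d) (hI : C.IsInt I) (hp : ∀ f, 0 ≤ I (f * f))
    {W : Fin (m + 1) → A} (hW : C.T1 W) :
    (h.lad hI hp).X (uB h hW) = h.fB (T2_Lg hW) := by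
  apply Subtype.ext
  change C.H 0 (W 0) = (1 / 2 : ℝ) • (C.H 0 (W 0) + C.H 0 (W 0))
  module

theorem D2_uB (h : Rk1 C d) (hI : C.IsInt I) (hp : ∀ f, 0 ≤ I (f * f))
    {W : Fin (m + 1) → A} (hW : C.T1 W) :
    (h.lad hI hp).L2.Δ (uB h hW) = d • uB h hW := by
  apply Subtype.ext
  change h.sys.Dl h.sys.P (W 0) = d • W 0
  rw [Sys.Dl_apply]
  have e1 : ∀ i j : Fin m, h.sys.P i j * h.sys.v i (h.sys.v j (W 0)) =
      - (Pc C i j * kr i j (W 0)) := by
    intro i j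
    change Pc C i j * C.V i.succ 0 (C.V j.succ 0 (W 0)) = _
    rw [hW j.succ 0 0, ac_zero_zero, hW i.succ 0 j.succ, ac_zero_succ]
    ring
  simp only [e1, sum_neg_distrib, neg_neg]
  have e3 : ∀ i : Fin m, ∑ j, Pc C i j * kr i j (W 0) = Pc C i i * W 0 := fun i =>
    sum_mul_kr_left i (fun j => Pc C i j) fun _ => W 0
  simp only [e3]
  rw [← sum_mul, h.sum_P, Algebra.smul_def]

variable (h : Rk1 C d) (hI : C.IsInt I) (hp : ∀ f, 0 ≤ I (f * f))
  (hR : RankOne C 2 (m + 3 * d)) (hd : 0 < d)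

include h hI hp hR hd

/-- **the slice inequality**, normalized calculus -/
theorem hco_two {W : Fin (m + 1) → A} (hW : C.T1 W) :
    d / (2 * (d + 1)) * B2 I (Lg C W) (Lg C W) ≤
      B2 I (k22 C 2 (m + 3 * d) (Lg C W)) (k22 C 2 (m + 3 * d) (Lg C W)) := by
  set L := h.lad hI hp with hL
  set k := Lg C W with hkdef
  have hk : C.T2 k := T2_Lg hW
  have hs : ∀ i j, k i j = k j i := Lg_symm W
  set u := uB h hW with hu
  set f := h.fB hk with hf
  set t := ttB h hk with ht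
  set g := phiB h hk + twoB h hk with hg
  have hft : f = g + t := fB_eq h hk
  have hXu : L.X u = f := coe_X_uB h hI hp hW
  have e1 := ip_S_eq L.L2 L.symm L.skew (D2_uB h hI hp hW)
  have hpos : 0 ≤ L.ip (L.L2.S u) u := by
    have h1 := L.L2.pos 0 u
    simpa using h1
  have hΔg : L.L2.Δ g = 0 := by
    rw [hg, map_add, (typ_phi h hI hp hk).D2, (typ_two h hI hp hR hk hs).D2]
    simp
  have hΔt : L.L2.Δ t = (2 * (d + 1)) • t := by
    rw [(typ_tt h hI hp hR hk hs).D2]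
    congr 1
    change 2 * (2 + d - 1) = 2 * (d + 1)
    ring
  have hd1 : 0 < 2 * (d + 1) := by linarith
  have horth : L.ip t g = 0 := by
    have h1 := L.L2.Δ_symm t g
    rw [hΔt, hΔg, map_smul, LinearMap.smul_apply, smul_eq_mul, map_zero] at h1
    exact (mul_eq_zero.1 h1).resolve_left hd1.ne'
  have hΔf : L.ip (L.L2.Δ f) f = 2 * (d + 1) * L.ip t t := by
    have h1 : L.L2.Δ f = (2 * (d + 1)) • t := by
      rw [hft, map_add, hΔg, zero_add, hΔt]
    rw [h1, map_smul, LinearMap.smul_apply, smul_eq_mul]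
    have h2 : L.ip t f = L.ip t t := by
      rw [hft, map_add, horth, zero_add]
    rw [h2]
  have e1' : L.ip (L.L2.S u) u = L.ip (L.L2.Δ (L.X u)) (L.X u) - d * L.ip (L.X u) (L.X u) -
      4 * d * L.ip u u := e1
  rw [hXu, hΔf] at e1'
  have huu : 0 ≤ L.ip u u := L.nonneg u
  have hmain : d * L.ip f f ≤ 2 * (d + 1) * L.ip t t := by
    have h1 : 0 ≤ 4 * d * L.ip u u := by positivity
    linarith
  -- the norms of the tensors
  have hB : ∀ l : Fin (m + 1) → Fin (m + 1) → A, B2 I l l = I (∑ i, ∑ j, l i j * l i j) := by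
    intro l
    rw [B2_apply]
    simp only [map_sum]
  have hk' : C.T2 (k22 C 2 (m + 3 * d) k) := T2_k22 hk
  have e2 := int_ksq hI hk hs
  have e3 := int_ksq hI hk' (k22_symm hs)
  have htr : trk (k22 C 2 (m + 3 * d) k) = 0 := hR.tr2_k22 k
  have hff : I (fk k * fk k) = L.ip f f := rfl
  have htt : I (fk (k22 C 2 (m + 3 * d) k) * fk (k22 C 2 (m + 3 * d) k)) = L.ip t t := rfl
  rw [htr, mul_zero, map_zero, mul_zero, sub_zero, htt] at e3
  rw [hff] at e2
  rw [hB, hB, e2, e3]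
  have hc : 0 < d / (2 * (d + 1)) := div_pos hd hd1
  have h1 : 0 ≤ I (trk k * trk k) := hp _
  have h2 : d / (2 * (d + 1)) * L.ip f f ≤ L.ip t t := by
    rw [div_mul_eq_mul_div, div_le_iff₀ hd1]
    linarith
  have hm : (0 : ℝ) ≤ 2 * (m + 1 : ℝ) * (m + 3) := by positivity
  have h3 := mul_le_mul_of_nonneg_left h2 hm
  have h4 : 0 ≤ d / (2 * (d + 1)) * (1 / 2 * I (trk k * trk k)) := by positivity
  have h5 : d / (2 * (d + 1)) * (2 * (m + 1 : ℝ) * (m + 3) * L.ip f f -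
      1 / 2 * I (trk k * trk k)) = 2 * (m + 1 : ℝ) * (m + 3) * (d / (2 * (d + 1)) * L.ip f f) -
        d / (2 * (d + 1)) * (1 / 2 * I (trk k * trk k)) := by ring
  rw [h5]
  linarith

end Hco

section Sc

variable {m : ℕ} {A : Type*} [CommRing A] [Algebra ℝ A] {C : FrCalc (m + 1) A}
  {I : A →ₗ[ℝ] ℝ} {b c₀ d : ℝ}

theorem sc_Lg (c : ℝ) (W : Fin (m + 1) → A) : Lg (sc C c) W = c • Lg C W := by
  funext i j
  change c • C.H i (W j) + c • C.H j (W i) = c • (C.H i (W j) + C.H j (W i))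
  rw [smul_add]

/-- **the slice inequality** -/
theorem hco (hb : 0 < b) (hc : 2 / b * (2 / b) * c₀ = m + 3 * d) (h : Rk1 (sc C (2 / b)) d)
    (hR : RankOne (sc C (2 / b)) 2 (m + 3 * d)) (hI : C.IsInt I) (hp : ∀ f, 0 ≤ I (f * f))
    (hd : 0 < d) (W : Fin (m + 1) → A) (hW : C.T1 W) :
    d / (2 * (d + 1)) * B2 I (Lg C W) (Lg C W) ≤
      B2 I (k22 C b c₀ (Lg C W)) (k22 C b c₀ (Lg C W)) := by
  have h1 := hco_two h (sc_IsInt C (2 / b) hI) hp hR hd ((sc_T1 C (2 / b)).2 hW)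
  have h2 : k22 (sc C (2 / b)) 2 (m + 3 * d) = k22 C b c₀ := by
    rw [← hc]
    exact LinearMap.ext fun k => sc_k22 C hb k
  rw [h2, sc_Lg] at h1
  simp only [map_smul, LinearMap.smul_apply, smul_eq_mul] at h1
  have hpos : 0 < 2 / b * (2 / b) := by positivity
  have h3 : 2 / b * (2 / b) * (d / (2 * (d + 1)) * B2 I (Lg C W) (Lg C W)) ≤
      2 / b * (2 / b) * B2 I (k22 C b c₀ (Lg C W)) (k22 C b c₀ (Lg C W)) := by
    linarith
  exact le_of_mul_le_mul_left h3 hpos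

end Sc

end Vale.Agent.P207.H608
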